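import Mathlib

/-! P199: finite-dimensionality of subalgebras of algebraic division algebras. -/

namespace Vale.Agent.P199

open Finset

variable {F D : Type*} [Field F] [DivisionRing D] [Algebra F D]

/-- adjoining an algebraic unit which normalises a finite-dimensional subalgebra -/
theorem adjoin_unit (B : Subalgebra F D) [FiniteDimensional F B] (g : Dˣ)
    (hg : IsAlgebraic F (g : D)) (hn : ∀ x ∈ B, (g : D) * x * ((g⁻¹ : Dˣ) : D) ∈ B) :
    FiniteDimensional F (Algebra.adjoin F ((B : Set D) ∪ {(g : D)})) := by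
  set P := Subalgebra.toSubmodule (Algebra.adjoin F {(g : D)}) with hP
  set M := Subalgebra.toSubmodule B * P with hM
  have hPfg : P.FG := by
    have := hg.isIntegral.fg_adjoin_singleton
    exact this
  have hBfg : (Subalgebra.toSubmodule B).FG := by
    rw [Submodule.fg_iff_finiteDimensional]
    exact ‹FiniteDimensional F B›
  have hMfg : M.FG := hBfg.mul hPfg
  have hpow : ∀ n : ℕ, ∀ x ∈ B, (g : D) ^ n * x ∈ M := by
    intro n x hx
    have h1 : ∀ n : ℕ, (g : D) ^ n * x * ((g⁻¹ : Dˣ) : D) ^ n ∈ B := by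
      intro n
      induction n with
      | zero => simpa using hx
      | succ n ih =>
        have := hn _ ih
        have e : (g : D) ^ (n + 1) * x * ((g⁻¹ : Dˣ) : D) ^ (n + 1) =
            (g : D) * ((g : D) ^ n * x * ((g⁻¹ : Dˣ) : D) ^ n) * ((g⁻¹ : Dˣ) : D) := by
          rw [pow_succ', pow_succ]
          simp only [mul_assoc]
        rw [e]; exact this
    have h2 : (g : D) ^ n ∈ Algebra.adjoin F {(g : D)} :=
      pow_mem (Algebra.self_mem_adjoin_singleton F (g : D)) n
    have h3 : (g : D) ^ n * x = ((g : D) ^ n * x * ((g⁻¹ : Dˣ) : D) ^ n) * (g : D) ^ n := by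
      rw [mul_assoc ((g : D) ^ n * x), ← Units.val_pow_eq_pow_val, ← Units.val_pow_eq_pow_val,
        ← Units.val_mul]
      simp
    rw [h3]
    exact Submodule.mul_mem_mul (h1 n) h2
  have hPB : P * Subalgebra.toSubmodule B ≤ M := by
    rw [Submodule.mul_le]
    intro p hp x hx
    have hp' : p ∈ Algebra.adjoin F {(g : D)} := hp
    rw [Algebra.adjoin_singleton_eq_range_aeval] at hp'
    obtain ⟨q, rfl⟩ := hp'
    simp only [AlgHom.toRingHom_eq_coe, RingHom.coe_coe]
    rw [Polynomial.aeval_eq_sum_range, Finset.sum_mul]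
    refine Submodule.sum_mem _ fun i _ => ?_
    rw [smul_mul_assoc]
    exact Submodule.smul_mem _ _ (hpow i x hx)
  have hBB : Subalgebra.toSubmodule B * Subalgebra.toSubmodule B ≤ Subalgebra.toSubmodule B := by
    rw [Submodule.mul_le]; intro x hx y hy; exact B.mul_mem hx hy
  have hPP : P * P ≤ P := by
    rw [Submodule.mul_le]; intro x hx y hy; exact Subalgebra.mul_mem _ hx hy
  have hMM : M * M ≤ M := by
    calc M * M = Subalgebra.toSubmodule B * (P * Subalgebra.toSubmodule B) * P := by
          rw [hM]; simp only [mul_assoc]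
      _ ≤ Subalgebra.toSubmodule B * M * P := by gcongr
      _ = (Subalgebra.toSubmodule B * Subalgebra.toSubmodule B) * (P * P) := by
          rw [hM]; simp only [mul_assoc]
      _ ≤ M := by rw [hM]; gcongr
  have h1M : (1 : D) ∈ M := by
    have := Submodule.mul_mem_mul (M := Subalgebra.toSubmodule B) (N := P) B.one_mem
      (Subalgebra.one_mem _)
    simpa using this
  let N : Subalgebra F D := M.toSubalgebra h1M (fun x y hx hy => hMM (Submodule.mul_mem_mul hx hy))
  have hle : Algebra.adjoin F ((B : Set D) ∪ {(g : D)}) ≤ N := by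
    refine Algebra.adjoin_le ?_
    rintro x (hx | hx)
    · have := Submodule.mul_mem_mul (M := Subalgebra.toSubmodule B) (N := P) hx
        (Subalgebra.one_mem _)
      have h' : x ∈ M := by simpa using this
      exact h'
    · rw [Set.mem_singleton_iff] at hx
      subst hx
      have := Submodule.mul_mem_mul (M := Subalgebra.toSubmodule B) (N := P) B.one_mem
        (Algebra.self_mem_adjoin_singleton F (g : D))
      have h' : (g : D) ∈ M := by simpa using this
      exact h'
  have hN : FiniteDimensional F M := (Submodule.fg_iff_finiteDimensional M).1 hMfg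
  exact Submodule.finiteDimensional_of_le
    (S₁ := Subalgebra.toSubmodule (Algebra.adjoin F ((B : Set D) ∪ {(g : D)}))) (S₂ := M)
    (fun x hx => hle hx)

/-- linear independence of distinct conjugations -/
theorem dedekind (L : Subalgebra F D) (hc : ∀ x ∈ L, ∀ y ∈ L, x * y = y * x) (g : Dˣ)
    (hn : ∀ x ∈ L, (g : D) * x * ((g⁻¹ : Dˣ) : D) ∈ L)
    (hd : ∀ j : ℕ, 0 < j → ∃ x ∈ L, (g : D) ^ j * x ≠ x * (g : D) ^ j) :
    ∀ (n : ℕ) (I : Finset ℕ), I.card = n → ∀ l : ℕ → D, (∀ i ∈ I, l i ∈ L) →
      ∑ i ∈ I, l i * (g : D) ^ i = 0 → ∀ i ∈ I, l i = 0 := by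
  have hpow : ∀ (i : ℕ) (x : D), x ∈ L → ∃ y ∈ L, (g : D) ^ i * x = y * (g : D) ^ i := by
    intro i
    induction i with
    | zero => intro x hx; exact ⟨x, hx, by simp⟩
    | succ i ih =>
      intro x hx
      obtain ⟨y, hy, e⟩ := ih x hx
      refine ⟨_, hn y hy, ?_⟩
      rw [pow_succ', mul_assoc, e, mul_assoc ((g : D) * y), ← mul_assoc ((g⁻¹ : Dˣ) : D)]
      simp [mul_assoc]
  intro n
  induction n using Nat.strong_induction_on with
  | _ n ih =>
    intro I hI l hl h0 i1 hi1
    by_contra hne
    -- all coefficients other than i1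
    by_cases hone : ∃ i2 ∈ I, i2 ≠ i1 ∧ l i2 ≠ 0
    · obtain ⟨i2, hi2, h12, hl2⟩ := hone
      obtain ⟨x, hx, hxne⟩ : ∃ x ∈ L, ∀ y ∈ L, ∀ z ∈ L, (g : D) ^ i1 * x = y * (g : D) ^ i1 →
          (g : D) ^ i2 * x = z * (g : D) ^ i2 → y ≠ z := by
        by_contra hcon
        push Not at hcon
        rcases lt_or_gt_of_ne h12 with hlt | hlt
        · obtain ⟨x0, hx0, hx0n⟩ := hd (i1 - i2) (by omega)
          obtain ⟨y, hy, z, hz, e1, e2, e3⟩ := hcon x0 hx0
          apply hx0n
          have hg : (g : D) ^ i1 = (g : D) ^ i2 * (g : D) ^ (i1 - i2) := by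
            rw [← pow_add]; congr 1; omega
          have hgu : IsUnit ((g : D) ^ i2) := (Units.isUnit g).pow i2
          apply hgu.mul_left_cancel
          rw [← mul_assoc, ← hg, e1, hg, ← mul_assoc, ← mul_assoc, e2, e3]
        · obtain ⟨x0, hx0, hx0n⟩ := hd (i2 - i1) (by omega)
          obtain ⟨y, hy, z, hz, e1, e2, e3⟩ := hcon x0 hx0
          apply hx0n
          have hg : (g : D) ^ i2 = (g : D) ^ i1 * (g : D) ^ (i2 - i1) := by
            rw [← pow_add]; congr 1; omega
          have hgu : IsUnit ((g : D) ^ i1) := (Units.isUnit g).pow i1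
          apply hgu.mul_left_cancel
          rw [← mul_assoc, ← hg, e2, hg, ← mul_assoc, ← mul_assoc, e1, e3]
      choose! σ hσ hσe using fun i => hpow i x hx
      have hσi : ∀ i, σ i ∈ L := hσ
      set l' : ℕ → D := fun i => l i * (σ i - σ i1) with hl'
      have e1 : ∑ i ∈ I, l' i * (g : D) ^ i = 0 := by
        have a1 : ∑ i ∈ I, l i * σ i * (g : D) ^ i = 0 := by
          have : (∑ i ∈ I, l i * (g : D) ^ i) * x = 0 := by rw [h0, zero_mul]
          rw [Finset.sum_mul] at this
          rw [← this]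
          refine Finset.sum_congr rfl fun i _ => ?_
          rw [mul_assoc, mul_assoc, hσe i]
        have a2 : ∑ i ∈ I, l i * σ i1 * (g : D) ^ i = 0 := by
          have : σ i1 * (∑ i ∈ I, l i * (g : D) ^ i) = 0 := by rw [h0, mul_zero]
          rw [Finset.mul_sum] at this
          rw [← this]
          refine Finset.sum_congr rfl fun i hi => ?_
          rw [← mul_assoc, hc _ (hσi i1) _ (hl i hi)]
        have : ∀ i ∈ I, l' i * (g : D) ^ i = l i * σ i * (g : D) ^ i - l i * σ i1 * (g : D) ^ i := by
          intro i _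
          simp only [hl']
          rw [mul_sub, sub_mul]
        rw [Finset.sum_congr rfl this, Finset.sum_sub_distrib, a1, a2, sub_zero]
      have e2 : ∑ i ∈ I.erase i1, l' i * (g : D) ^ i = 0 := by
        rw [← Finset.add_sum_erase I _ hi1] at e1
        simpa [hl'] using e1
      have hcard : (I.erase i1).card < n := by
        rw [Finset.card_erase_of_mem hi1, hI]
        have : 0 < I.card := Finset.card_pos.2 ⟨i1, hi1⟩
        omega
      have := ih _ hcard (I.erase i1) rfl l'
        (fun i hi => L.mul_mem (hl i (Finset.mem_of_mem_erase hi)) (L.sub_mem (hσi i) (hσi i1)))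
        e2 i2 (Finset.mem_erase.2 ⟨h12, hi2⟩)
      simp only [hl', mul_eq_zero, hl2, false_or, sub_eq_zero] at this
      exact hxne _ (hσi i1) _ (hσi i2) (hσe i1) (hσe i2) this.symm
    · push Not at hone
      rw [Finset.sum_eq_single i1 (fun i hi hne' => by rw [hone i hi hne', zero_mul])
        (fun h => absurd hi1 h)] at h0
      rcases mul_eq_zero.1 h0 with h | h
      · exact hne h
      · exact (pow_ne_zero _ g.ne_zero) h

/-- some power of an algebraic unit normalising a commutative subalgebra centralises it -/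
theorem exists_pow_comm (L : Subalgebra F D) (hc : ∀ x ∈ L, ∀ y ∈ L, x * y = y * x) (g : Dˣ)
    (hg : IsAlgebraic F (g : D)) (hn : ∀ x ∈ L, (g : D) * x * ((g⁻¹ : Dˣ) : D) ∈ L) :
    ∃ j : ℕ, 0 < j ∧ ∀ x ∈ L, (g : D) ^ j * x = x * (g : D) ^ j := by
  by_contra hcon
  push Not at hcon
  obtain ⟨p, hp0, hp⟩ := hg
  have h := dedekind L hc g hn hcon _ (Finset.range (p.natDegree + 1)) rfl
    (fun i => algebraMap F D (p.coeff i)) (fun i _ => L.algebraMap_mem _) (by
      rw [Polynomial.aeval_eq_sum_range] at hp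
      rw [← hp]
      refine Finset.sum_congr rfl fun i _ => ?_
      rw [Algebra.smul_def])
  have := h p.natDegree (Finset.mem_range.2 (Nat.lt_succ_self _))
  rw [map_eq_zero] at this
  exact hp0 (Polynomial.leadingCoeff_eq_zero.1 this)

end Vale.Agent.P199
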