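import Vale.Agent.P199.Base

namespace Vale.Agent.P199

open scoped commutatorElement

variable {F D : Type*} [Field F] [DivisionRing D] [Algebra F D]

/-- the subalgebra generated by a set of units -/
abbrev adj (F : Type*) {D : Type*} [Field F] [DivisionRing D] [Algebra F D] (S : Set Dˣ) :
    Subalgebra F D := Algebra.adjoin F (Units.val '' S)

theorem adj_mono {S T : Set Dˣ} (h : S ⊆ T) : adj F S ≤ adj F T :=
  Algebra.adjoin_mono (Set.image_mono h)

theorem mem_adj {S : Set Dˣ} {u : Dˣ} (h : u ∈ S) : (u : D) ∈ adj F S :=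
  Algebra.subset_adjoin ⟨u, h, rfl⟩

theorem conj_adjoin (B : Subalgebra F D) (s : Set D) (u : Dˣ)
    (h : ∀ x ∈ s, (u : D) * x * ((u⁻¹ : Dˣ) : D) ∈ B) :
    ∀ x ∈ Algebra.adjoin F s, (u : D) * x * ((u⁻¹ : Dˣ) : D) ∈ B := by
  intro x hx
  induction hx using Algebra.adjoin_induction with
  | mem x hx => exact h x hx
  | algebraMap r =>
    have : (u : D) * algebraMap F D r * ((u⁻¹ : Dˣ) : D) = algebraMap F D r := by
      rw [← Algebra.commutes, mul_assoc]; simp
    rw [this]; exact B.algebraMap_mem r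
  | add x y _ _ hx hy =>
    rw [mul_add, add_mul]; exact B.add_mem hx hy
  | mul x y _ _ hx hy =>
    have : (u : D) * (x * y) * ((u⁻¹ : Dˣ) : D) =
        ((u : D) * x * ((u⁻¹ : Dˣ) : D)) * ((u : D) * y * ((u⁻¹ : Dˣ) : D)) := by
      have e : ((u⁻¹ : Dˣ) : D) * (u : D) = 1 := by simp
      calc (u : D) * (x * y) * ((u⁻¹ : Dˣ) : D)
          = (u : D) * x * 1 * y * ((u⁻¹ : Dˣ) : D) := by simp [mul_assoc]
        _ = _ := by rw [← e]; simp only [mul_assoc]
    rw [this]; exact B.mul_mem hx hy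

/-- adjoining finitely many units one after another -/
theorem adjoin_finite [Algebra.IsAlgebraic F D] (T : Set Dˣ) (hT : FiniteDimensional F (adj F T))
    (U : Set Dˣ) (hU : U.Finite) (h1 : ∀ u ∈ U, ∀ t ∈ T, ((u * t * u⁻¹ : Dˣ) : D) ∈ adj F T)
    (h2 : ∀ u ∈ U, ∀ v ∈ U, ((u * v * u⁻¹ : Dˣ) : D) ∈ adj F (T ∪ {v})) :
    FiniteDimensional F (adj F (T ∪ U)) := by
  induction U, hU using Set.Finite.induction_on with
  | empty => rw [Set.union_empty]; exact hT
  | @insert u U hu hfin ih =>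
    have ih' := ih (fun v hv t ht => h1 v (Set.mem_insert_of_mem _ hv) t ht)
      (fun v hv w hw => h2 v (Set.mem_insert_of_mem _ hv) w (Set.mem_insert_of_mem _ hw))
    have hn : ∀ x ∈ adj F (T ∪ U), (u : D) * x * ((u⁻¹ : Dˣ) : D) ∈ adj F (T ∪ U) := by
      refine conj_adjoin _ _ u ?_
      rintro _ ⟨v, hv | hv, rfl⟩
      · have := h1 u (Set.mem_insert _ _) v hv
        rw [Units.val_mul, Units.val_mul] at this
        exact adj_mono Set.subset_union_left this
      · have := h2 u (Set.mem_insert _ _) v (Set.mem_insert_of_mem _ hv)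
        rw [Units.val_mul, Units.val_mul] at this
        refine adj_mono ?_ this
        rintro w (hw | hw)
        · exact Or.inl hw
        · rw [Set.mem_singleton_iff] at hw; subst hw; exact Or.inr hv
    have := adjoin_unit (adj F (T ∪ U)) u (Algebra.IsAlgebraic.isAlgebraic _) hn
    refine Submodule.finiteDimensional_of_le
      (S₁ := Subalgebra.toSubmodule (adj F (T ∪ insert u U)))
      (S₂ := Subalgebra.toSubmodule (Algebra.adjoin F (((adj F (T ∪ U) : Subalgebra F D) :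
        Set D) ∪ {(u : D)}))) ?_
    intro x hx
    have hle : adj F (T ∪ insert u U) ≤ Algebra.adjoin F (((adj F (T ∪ U) : Subalgebra F D) :
        Set D) ∪ {(u : D)}) := by
      refine Algebra.adjoin_le ?_
      rintro _ ⟨v, hv, rfl⟩
      rcases hv with hv | hv | hv
      · exact Algebra.subset_adjoin (Or.inl (mem_adj (Or.inl hv)))
      · subst hv; exact Algebra.subset_adjoin (Or.inr rfl)
      · exact Algebra.subset_adjoin (Or.inl (mem_adj (Or.inr hv)))
    exact hle hx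

theorem comm_adjoin {s : Set D} (h : ∀ x ∈ s, ∀ y ∈ s, x * y = y * x) :
    ∀ x ∈ Algebra.adjoin F s, ∀ y ∈ Algebra.adjoin F s, x * y = y * x := by
  intro x hx y hy
  have h1 : ∀ z ∈ s, Commute z x := fun z hz =>
    Algebra.commute_of_mem_adjoin_of_forall_mem_commute hx (fun w hw => h z hz w hw)
  exact (Algebra.commute_of_mem_adjoin_of_forall_mem_commute hy
    (fun w hw => (h1 w hw).symm)).eq

theorem metabelian [Algebra.IsAlgebraic F D] (S : Set Dˣ) (hS : S.Finite)
    (hmet : ∀ a ∈ commutator (Subgroup.closure S), ∀ b ∈ commutator (Subgroup.closure S),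
      a * b = b * a) : FiniteDimensional F (adj F S) := by
  classical
  set Γ := Subgroup.closure S with hΓ
  set C : Subgroup Γ := Subgroup.centralizer (commutator Γ : Set Γ) with hC
  haveI : C.Normal := by rw [hC]; infer_instance
  have hle : commutator Γ ≤ C := by
    intro a ha
    rw [hC, Subgroup.mem_centralizer_iff]
    intro b hb
    exact hmet b hb a ha
  -- torsion
  have htor : ∀ γ : Γ, ∃ j : ℕ, 0 < j ∧ γ ^ j ∈ C := by
    intro γ
    set s : Set D := (fun a : Γ => ((a : Dˣ) : D)) '' (commutator Γ : Set Γ) with hs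
    have hcomm : ∀ x ∈ Algebra.adjoin F s, ∀ y ∈ Algebra.adjoin F s, x * y = y * x := by
      refine comm_adjoin ?_
      rintro _ ⟨a, ha, rfl⟩ _ ⟨b, hb, rfl⟩
      have := hmet a ha b hb
      have h' := congrArg (fun z : Γ => ((z : Dˣ) : D)) this
      simpa using h'
    have hn : ∀ x ∈ Algebra.adjoin F s, ((γ : Dˣ) : D) * x * (((γ : Dˣ)⁻¹ : Dˣ) : D) ∈
        Algebra.adjoin F s := by
      refine conj_adjoin _ _ (γ : Dˣ) ?_
      rintro _ ⟨a, ha, rfl⟩
      refine Algebra.subset_adjoin ⟨γ * a * γ⁻¹, ?_, by simp⟩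
      exact (inferInstance : (commutator Γ).Normal).conj_mem a ha γ
    obtain ⟨j, hj, hj'⟩ := exists_pow_comm (Algebra.adjoin F s) hcomm (γ : Dˣ)
      (Algebra.IsAlgebraic.isAlgebraic _) hn
    refine ⟨j, hj, ?_⟩
    rw [hC, Subgroup.mem_centralizer_iff]
    intro a ha
    have := hj' _ (Algebra.subset_adjoin ⟨a, ha, rfl⟩)
    apply Subtype.ext
    apply Units.ext
    simpa using this.symm
  haveI : Finite S := hS
  haveI : Group.FG Γ := by
    rw [Group.fg_iff_subgroup_fg]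
    exact ⟨hS.toFinset, by rw [Set.Finite.coe_toFinset]⟩
  haveI hfin : Finite (Γ ⧸ C) := by
    letI : CommGroup (Γ ⧸ C) :=
      { (inferInstance : Group (Γ ⧸ C)) with
        mul_comm := fun a b => by
          have := (Subgroup.Normal.quotient_commutative_iff_commutator_le (N := C)).2 hle
          exact this.is_comm.comm a b }
    haveI : Group.FG (Γ ⧸ C) := QuotientGroup.fg C
    refine CommGroup.finite_of_fg_isMulTorsion (Γ ⧸ C) ?_
    intro q
    obtain ⟨γ, rfl⟩ := QuotientGroup.mk_surjective q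
    obtain ⟨j, hj, hj'⟩ := htor γ
    rw [isOfFinOrder_iff_pow_eq_one]
    refine ⟨j, hj, ?_⟩
    have := (QuotientGroup.eq_one_iff (N := C) (γ ^ j)).2 hj'
    simpa using this
  -- the finite set of conjugates of the commutators of the generators
  set gen : S → Γ := fun s => ⟨s, Subgroup.subset_closure s.2⟩ with hgen
  set f : (S × S) × (Γ ⧸ C) → Dˣ := fun p =>
    Quotient.liftOn' p.2 (fun γ => ((γ * ⁅gen p.1.1, gen p.1.2⁆ * γ⁻¹ : Γ) : Dˣ)) (by
      intro γ γ' hγ
      have h1 : γ⁻¹ * γ' ∈ C := QuotientGroup.leftRel_apply.1 hγ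
      have h2 : ⁅gen p.1.1, gen p.1.2⁆ ∈ commutator Γ :=
        Subgroup.commutator_mem_commutator (Subgroup.mem_top _) (Subgroup.mem_top _)
      rw [hC, Subgroup.mem_centralizer_iff] at h1
      have h3 := h1 _ h2
      have h4 : γ * ⁅gen p.1.1, gen p.1.2⁆ * γ⁻¹ = γ' * ⁅gen p.1.1, gen p.1.2⁆ * γ'⁻¹ := by
        have : γ' = γ * (γ⁻¹ * γ') := by group
        rw [this]
        generalize γ⁻¹ * γ' = δ at h3
        generalize ⁅gen p.1.1, gen p.1.2⁆ = c at h3
        calc γ * c * γ⁻¹ = γ * (c * δ) * δ⁻¹ * γ⁻¹ := by group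
          _ = γ * (δ * c) * δ⁻¹ * γ⁻¹ := by rw [h3]
          _ = _ := by group
      simp only [h4]) with hf
  have hfin2 : (Set.range f).Finite := Set.finite_range f
  set T := Set.range f with hT
  have hTC : ∀ t ∈ T, ∃ c : Γ, c ∈ commutator Γ ∧ (c : Dˣ) = t := by
    rintro _ ⟨⟨⟨s, s'⟩, q⟩, rfl⟩
    obtain ⟨γ, rfl⟩ := QuotientGroup.mk_surjective q
    refine ⟨γ * ⁅gen s, gen s'⁆ * γ⁻¹, ?_, rfl⟩
    exact (inferInstance : (commutator Γ).Normal).conj_mem _
      (Subgroup.commutator_mem_commutator (Subgroup.mem_top _) (Subgroup.mem_top _)) γ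
  have hTconj : ∀ δ : Γ, ∀ t ∈ T, (δ : Dˣ) * t * (δ : Dˣ)⁻¹ ∈ T := by
    rintro δ _ ⟨⟨⟨s, s'⟩, q⟩, rfl⟩
    obtain ⟨γ, rfl⟩ := QuotientGroup.mk_surjective q
    refine ⟨⟨⟨s, s'⟩, QuotientGroup.mk (δ * γ)⟩, ?_⟩
    have e : f ⟨⟨s, s'⟩, QuotientGroup.mk (δ * γ)⟩ =
      (((δ * γ) * ⁅gen s, gen s'⁆ * (δ * γ)⁻¹ : Γ) : Dˣ) := rfl
    have e' : f ⟨⟨s, s'⟩, QuotientGroup.mk γ⟩ = ((γ * ⁅gen s, gen s'⁆ * γ⁻¹ : Γ) : Dˣ) := rfl
    rw [e, e']
    simp only [Subgroup.coe_mul, Subgroup.coe_inv, mul_inv_rev, mul_assoc]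
  have hTfd : FiniteDimensional F (adj F T) := by
    have h := adjoin_finite (F := F) (D := D) ∅ (by
      have : adj F (∅ : Set Dˣ) = ⊥ := by simp [adj]
      rw [this]; infer_instance) T hfin2 (by simp) (by
      intro u hu v hv
      obtain ⟨c, hc, rfl⟩ := hTC u hu
      obtain ⟨c', hc', rfl⟩ := hTC v hv
      have := hmet c hc c' hc'
      have h' : (c : Dˣ) * (c' : Dˣ) * (c : Dˣ)⁻¹ = (c' : Dˣ) := by
        have h'' := congrArg (fun z : Γ => (z : Dˣ)) this
        simp only [Subgroup.coe_mul] at h''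
        rw [h'']; group
      rw [h']
      exact mem_adj (Or.inr rfl))
    rwa [Set.empty_union] at h
  have hmain := adjoin_finite (F := F) (D := D) T hTfd S hS (by
      intro u hu t ht
      exact mem_adj (hTconj ⟨u, Subgroup.subset_closure hu⟩ t ht)) (by
      intro u hu v hv
      have hT1 : ((⁅(⟨u, Subgroup.subset_closure hu⟩ : Γ), ⟨v, Subgroup.subset_closure hv⟩⁆ : Γ) :
          Dˣ) ∈ T := by
        refine ⟨⟨⟨⟨u, hu⟩, ⟨v, hv⟩⟩, QuotientGroup.mk 1⟩, ?_⟩
        have e : f ⟨⟨⟨u, hu⟩, ⟨v, hv⟩⟩, QuotientGroup.mk 1⟩ =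
          ((1 * ⁅gen ⟨u, hu⟩, gen ⟨v, hv⟩⁆ * 1⁻¹ : Γ) : Dˣ) := rfl
        rw [e]
        simp [hgen]
      have e : (u * v * u⁻¹ : Dˣ) =
          ((⁅(⟨u, Subgroup.subset_closure hu⟩ : Γ), ⟨v, Subgroup.subset_closure hv⟩⁆ : Γ) :
          Dˣ) * v := by
        simp [commutatorElement_def]
      rw [e, Units.val_mul]
      exact Subalgebra.mul_mem _ (mem_adj (Or.inl hT1)) (mem_adj (Or.inr rfl)))
  exact Submodule.finiteDimensional_of_le
    (S₁ := Subalgebra.toSubmodule (adj F S)) (S₂ := Subalgebra.toSubmodule (adj F (T ∪ S)))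
    (fun x hx => adj_mono Set.subset_union_right hx)

end Vale.Agent.P199
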