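import Vale.Agent.P199.Grp

namespace Vale.Agent.P199

variable {F D : Type*} [Field F] [DivisionRing D] [Algebra F D]

/-- two quadratic elements generate a finite-dimensional subalgebra -/
theorem quadratic [Algebra.IsAlgebraic F D] (a b : D) (p q r s : F)
    (ha : a * a = p • a + q • (1 : D)) (hb : b * b = r • b + s • (1 : D)) :
    FiniteDimensional F (Algebra.adjoin F ({a, b} : Set D)) := by
  set c : D := a * b + b * a - r • a - p • b with hc
  have hba : b * a = c + r • a + p • b - a * b := by rw [hc]; abel
  have hca : Commute a c := by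
    have h1 : a * c = a * a * b + a * b * a - r • (a * a) - p • (a * b) := by
      rw [hc]; simp only [mul_sub, mul_add, mul_smul_comm, mul_assoc]
    have h2 : c * a = a * b * a + b * (a * a) - r • (a * a) - p • (b * a) := by
      rw [hc]; simp only [sub_mul, add_mul, smul_mul_assoc, mul_assoc]
    show a * c = c * a
    rw [h1, h2, ha]
    simp only [add_mul, mul_add, smul_mul_assoc, mul_smul_comm, one_mul, mul_one]
    abel
  have hcb : Commute b c := by
    have h1 : b * c = b * a * b + (b * b) * a - r • (b * a) - p • (b * b) := by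
      rw [hc]; simp only [mul_sub, mul_add, mul_smul_comm, mul_assoc]
    have h2 : c * b = a * (b * b) + b * a * b - r • (a * b) - p • (b * b) := by
      rw [hc]; simp only [sub_mul, add_mul, smul_mul_assoc, mul_assoc]
    show b * c = c * b
    rw [h1, h2, hb]
    simp only [add_mul, mul_add, smul_mul_assoc, mul_smul_comm, one_mul, mul_one]
    abel
  set P := Subalgebra.toSubmodule (Algebra.adjoin F {c}) with hP
  set W := Submodule.span F ({1, a, b, a * b} : Set D) with hW
  set M := P * W with hM
  have hPfg : P.FG := (Algebra.IsAlgebraic.isAlgebraic (R := F) c).isIntegral.fg_adjoin_singleton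
  have hWfg : W.FG := Submodule.fg_span (by simp)
  have hMfg : M.FG := hPfg.mul hWfg
  have hW1 : (1 : D) ∈ W := Submodule.subset_span (by simp)
  have hWa : a ∈ W := Submodule.subset_span (by simp)
  have hWb : b ∈ W := Submodule.subset_span (by simp)
  have hWab : a * b ∈ W := Submodule.subset_span (by simp)
  have hP1 : (1 : D) ∈ P := Subalgebra.one_mem _
  have hPc : c ∈ P := Algebra.self_mem_adjoin_singleton F c
  have hWM : W ≤ M := fun w hw => by
    have := Submodule.mul_mem_mul (M := P) (N := W) hP1 hw
    simpa using this
  have hPP : ∀ x ∈ P, ∀ y ∈ M, x * y ∈ M := by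
    intro x hx y hy
    have h1 : x * y ∈ P * M := Submodule.mul_mem_mul hx hy
    have h2 : P * M ≤ M := by
      rw [hM, ← mul_assoc]
      gcongr
      rw [Submodule.mul_le]; intro x hx y hy; exact Subalgebra.mul_mem _ hx hy
    exact h2 h1
  have hcomm : ∀ z : D, Commute z c → ∀ x ∈ P, z * x = x * z := by
    intro z hz x hx
    exact (Algebra.commute_of_mem_adjoin_of_forall_mem_commute (hx : x ∈ Algebra.adjoin F {c})
      (fun w hw => by rw [Set.mem_singleton_iff] at hw; subst hw; exact hz)).eq
  have key : ∀ z : D, Commute z c → (∀ w ∈ W, z * w ∈ M) → ∀ x ∈ M, z * x ∈ M := by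
    intro z hz hw x hx
    refine Submodule.mul_induction_on hx ?_ ?_
    · intro m hm n hn
      rw [← mul_assoc, hcomm z hz m hm, mul_assoc]
      exact hPP m hm _ (hw n hn)
    · intro x y hx hy
      rw [mul_add]; exact M.add_mem hx hy
  have haW : ∀ w ∈ W, a * w ∈ M := by
    intro w hw
    apply hWM
    refine Submodule.span_induction (p := fun w _ => a * w ∈ W) ?_ ?_ ?_ ?_ hw
    · intro x hx
      simp only [Set.mem_insert_iff, Set.mem_singleton_iff] at hx
      rcases hx with rfl | rfl | rfl | rfl
      · simpa using hWa
      · rw [ha]; exact W.add_mem (W.smul_mem _ hWa) (W.smul_mem _ hW1)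
      · exact hWab
      · rw [← mul_assoc, ha, add_mul, smul_mul_assoc, smul_mul_assoc, one_mul]
        exact W.add_mem (W.smul_mem _ hWab) (W.smul_mem _ hWb)
    · simp
    · intro x y _ _ hx hy; rw [mul_add]; exact W.add_mem hx hy
    · intro t x _ hx; rw [mul_smul_comm]; exact W.smul_mem _ hx
  have hbW : ∀ w ∈ W, b * w ∈ M := by
    intro w hw
    refine Submodule.span_induction (p := fun w _ => b * w ∈ M) ?_ ?_ ?_ ?_ hw
    · intro x hx
      have hcM : c ∈ M := by
        have := Submodule.mul_mem_mul (M := P) (N := W) hPc hW1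
        simpa using this
      have hcbM : c * b ∈ M := Submodule.mul_mem_mul hPc hWb
      simp only [Set.mem_insert_iff, Set.mem_singleton_iff] at hx
      rcases hx with rfl | rfl | rfl | rfl
      · apply hWM; simpa using hWb
      · rw [hba]
        exact M.sub_mem (M.add_mem (M.add_mem hcM (M.smul_mem _ (hWM hWa)))
          (M.smul_mem _ (hWM hWb))) (hWM hWab)
      · rw [hb]; exact hWM (W.add_mem (W.smul_mem _ hWb) (W.smul_mem _ hW1))
      · have e : b * (a * b) = c * b + (p * r) • b + (p * s) • (1 : D) - s • a := by
          rw [← mul_assoc, hba]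
          have h2 : (c + r • a + p • b - a * b) * b =
              c * b + r • (a * b) + p • (b * b) - a * (b * b) := by
            simp only [sub_mul, add_mul, smul_mul_assoc, mul_assoc]
          rw [h2, hb]
          simp only [mul_add, mul_smul_comm, mul_one, smul_add, smul_smul]
          abel
        rw [e]
        exact M.sub_mem (M.add_mem (M.add_mem hcbM (M.smul_mem _ (hWM hWb)))
          (M.smul_mem _ (hWM hW1))) (M.smul_mem _ (hWM hWa))
    · simp
    · intro x y _ _ hx hy; rw [mul_add]; exact M.add_mem hx hy
    · intro t x _ hx; rw [mul_smul_comm]; exact M.smul_mem _ hx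
  have hall : ∀ x ∈ Algebra.adjoin F ({a, b} : Set D), ∀ y ∈ M, x * y ∈ M := by
    intro x hx
    induction hx using Algebra.adjoin_induction with
    | mem x hx =>
      rcases hx with rfl | hx
      · exact key _ hca haW
      · rw [Set.mem_singleton_iff] at hx; subst hx; exact key _ hcb hbW
    | algebraMap t => intro y hy; rw [← Algebra.smul_def]; exact M.smul_mem _ hy
    | add x y _ _ hx hy => intro z hz; rw [add_mul]; exact M.add_mem (hx z hz) (hy z hz)
    | mul x y _ _ hx hy => intro z hz; rw [mul_assoc]; exact hx _ (hy z hz)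
  haveI hMfd : FiniteDimensional F M := (Submodule.fg_iff_finiteDimensional M).1 hMfg
  exact Submodule.finiteDimensional_of_le
    (S₁ := Subalgebra.toSubmodule (Algebra.adjoin F ({a, b} : Set D))) (S₂ := M)
    (fun x hx => by simpa using hall x hx 1 (hWM hW1))

end Vale.Agent.P199
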